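import Mathlib

/-!
# P199 helper: TASK STEP (board row 160)

`exists_indep_pair_mod`: in a division ring `D` acted on by a field `K` through left
multiplication, for a noncentral `x` and a finite-dimensional `W` of dimension `≤ n`, if `D`
contains `2n+2` independent vectors then some `e` has `e, e*x` independent modulo `W`.
-/

namespace Vale.Agent.H28

open Module

section Step

variable {K D : Type*} [Field K] [DivisionRing D] [Module K D] [IsScalarTower K D D]

omit [IsScalarTower K D D] in
/-- From a dependence of `e, e*x` modulo `W` with `e ∉ W`, an eigen-relation modulo `W`. -/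
lemma step_key (x : D) (W : Submodule K D)
    (hH : ∀ e : D, ∃ α β : K, α • e + β • (e * x) ∈ W ∧ ¬(α = 0 ∧ β = 0))
    (e : D) (he : e ∉ W) : ∃ l : K, e * x - l • e ∈ W := by
  obtain ⟨α, β, h, hne⟩ := hH e
  have hβ : β ≠ 0 := by
    intro hβ
    subst hβ
    have hα : α ≠ 0 := fun hα => hne ⟨hα, rfl⟩
    rw [zero_smul, add_zero] at h
    exact he ((W.smul_mem_iff hα).1 h)
  refine ⟨-(β⁻¹ * α), ?_⟩
  have h2 : β⁻¹ • (α • e + β • (e * x)) ∈ W := W.smul_mem _ h
  have h3 : β⁻¹ • (α • e + β • (e * x)) = e * x - (-(β⁻¹ * α)) • e := by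
    rw [smul_add, smul_smul, smul_smul, inv_mul_cancel₀ hβ, one_smul, neg_smul]
    abel
  rwa [h3] at h2

omit [IsScalarTower K D D] in
/-- Two vectors independent modulo `W` have the same eigenvalue modulo `W`. -/
lemma step_two (x : D) (W : Submodule K D)
    (hH : ∀ e : D, ∃ α β : K, α • e + β • (e * x) ∈ W ∧ ¬(α = 0 ∧ β = 0))
    (e1 e2 : D) (hind : ∀ a b : K, a • e1 + b • e2 ∈ W → a = 0 ∧ b = 0)
    (l1 l2 : K) (h1 : e1 * x - l1 • e1 ∈ W) (h2 : e2 * x - l2 • e2 ∈ W) : l1 = l2 := by
  have h12 : e1 + e2 ∉ W := by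
    intro h
    have := hind 1 1 (by simpa using h)
    exact one_ne_zero this.1
  obtain ⟨l3, h3⟩ := step_key x W hH (e1 + e2) h12
  have h4 : (l3 - l1) • e1 + (l3 - l2) • e2 ∈ W := by
    have h5 : (l3 - l1) • e1 + (l3 - l2) • e2
        = (e1 * x - l1 • e1) + (e2 * x - l2 • e2) - ((e1 + e2) * x - l3 • (e1 + e2)) := by
      rw [sub_smul, sub_smul, add_mul, smul_add]
      abel
    rw [h5]
    exact W.sub_mem (W.add_mem h1 h2) h3
  obtain ⟨ha, hb⟩ := hind _ _ h4
  rw [sub_eq_zero] at ha hb
  rw [← ha, ← hb]

omit [IsScalarTower K D D] in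
/-- If `W ⊔ S = ⊤` with `W`, `S` finite-dimensional then `D` is finite-dimensional of
dimension at most the sum. -/
lemma finite_of_sup_eq_top (W S : Submodule K D) [Module.Finite K W] [Module.Finite K S]
    (h : W ⊔ S = ⊤) : Module.Finite K D ∧ finrank K D ≤ finrank K W + finrank K S := by
  have hfin : Module.Finite K (⊤ : Submodule K D) := by
    rw [← h]; infer_instance
  have hD : Module.Finite K D := Module.Finite.equiv (Submodule.topEquiv (R := K) (M := D))
  refine ⟨hD, ?_⟩
  have h1 := Submodule.finrank_add_le_finrank_add_finrank W S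
  rw [h, finrank_top] at h1
  exact h1

/-- TASK STEP. -/
theorem exists_indep_pair_mod {K D : Type*} [Field K] [DivisionRing D] [Module K D]
    [IsScalarTower K D D] (x : D) (hx : ∃ a : D, a * x ≠ x * a)
    (W : Submodule K D) (n : ℕ) [Module.Finite K W] (hWn : Module.finrank K W ≤ n)
    (hbig : ∃ v : Fin (2 * n + 2) → D, LinearIndependent K v) :
    ∃ e : D, ∀ α β : K, α • e + β • (e * x) ∈ W → α = 0 ∧ β = 0 := by
  by_contra hcon
  have hH : ∀ e : D, ∃ α β : K, α • e + β • (e * x) ∈ W ∧ ¬(α = 0 ∧ β = 0) := by
    intro e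
    by_contra h
    exact hcon ⟨e, fun α β hm => by_contra fun hne => h ⟨α, β, hm, hne⟩⟩
  obtain ⟨v, hv⟩ := hbig
  suffices hfin : Module.Finite K D ∧ finrank K D ≤ 2 * n + 1 by
    obtain ⟨hD, hr⟩ := hfin
    have h1 := hv.fintype_card_le_finrank
    rw [Fintype.card_fin] at h1
    omega
  by_cases hind : ∃ e1 e2 : D, ∀ a b : K, a • e1 + b • e2 ∈ W → a = 0 ∧ b = 0
  · obtain ⟨e1, e2, hind⟩ := hind
    have he1 : e1 ∉ W := by
      intro h
      have := hind 1 0 (by simpa using h)
      exact one_ne_zero this.1
    have he2 : e2 ∉ W := by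
      intro h
      have := hind 0 1 (by simpa using h)
      exact one_ne_zero this.2
    obtain ⟨l, hl1⟩ := step_key x W hH e1 he1
    obtain ⟨l2, hl2⟩ := step_key x W hH e2 he2
    have hl : l = l2 := step_two x W hH e1 e2 hind l l2 hl1 hl2
    subst hl
    have hall : ∀ e : D, e * x - l • e ∈ W := by
      intro e
      by_cases hd : ∀ a b : K, a • e + b • e1 ∈ W → a = 0 ∧ b = 0
      · have he : e ∉ W := by
          intro h
          have := hd 1 0 (by simpa using h)
          exact one_ne_zero this.1
        obtain ⟨l', hl'⟩ := step_key x W hH e he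
        have hll := step_two x W hH e e1 hd l' l hl' hl1
        rwa [hll] at hl'
      · have hd' : ∃ a b : K, a • e + b • e1 ∈ W ∧ ¬(a = 0 ∧ b = 0) := by
          by_contra h
          exact hd fun a b hm => by_contra fun hne => h ⟨a, b, hm, hne⟩
        obtain ⟨a, b, hm, hne⟩ := hd'
        have ha : a ≠ 0 := by
          intro ha
          subst ha
          have hb : b ≠ 0 := fun hb => hne ⟨rfl, hb⟩
          rw [zero_smul, zero_add] at hm
          exact he1 ((W.smul_mem_iff hb).1 hm)
        have hc : e + (a⁻¹ * b) • e1 ∈ W := by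
          have h1 := W.smul_mem a⁻¹ hm
          rwa [smul_add, smul_smul, smul_smul, inv_mul_cancel₀ ha, one_smul] at h1
        have hind2 : ∀ a' b' : K, a' • (e + e2) + b' • e1 ∈ W → a' = 0 ∧ b' = 0 := by
          intro a' b' h
          have h2 : (b' - a' * (a⁻¹ * b)) • e1 + a' • e2 ∈ W := by
            have h3 : (b' - a' * (a⁻¹ * b)) • e1 + a' • e2
                = (a' • (e + e2) + b' • e1) - a' • (e + (a⁻¹ * b) • e1) := by
              rw [sub_smul, smul_add, smul_add, mul_smul]
              abel
            rw [h3]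
            exact W.sub_mem h (W.smul_mem _ hc)
          obtain ⟨h4, h5⟩ := hind _ _ h2
          refine ⟨h5, ?_⟩
          rw [h5, zero_mul, sub_zero] at h4
          exact h4
        have hee2 : e + e2 ∉ W := by
          intro h
          have := hind2 1 0 (by simpa using h)
          exact one_ne_zero this.1
        obtain ⟨l', hl'⟩ := step_key x W hH (e + e2) hee2
        have hll := step_two x W hH (e + e2) e1 hind2 l' l hl' hl1
        subst hll
        have h6 : e * x - l' • e = ((e + e2) * x - l' • (e + e2)) - (e2 * x - l' • e2) := by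
          rw [add_mul, smul_add]
          abel
        rw [h6]
        exact W.sub_mem hl' hl2
    -- the operator `T = (· * x) - l`
    set T : D →ₗ[K] D := LinearMap.mulRight K x - l • LinearMap.id with hTdef
    have hTapp : ∀ e : D, T e = e * x - l • e := fun e => by simp [hTdef]
    have hrange : LinearMap.range T ≤ W := by
      rintro _ ⟨e, rfl⟩
      rw [hTapp]
      exact hall e
    have hRfin : Module.Finite K (LinearMap.range T) := Submodule.finiteDimensional_of_le hrange
    have hRrank : finrank K (LinearMap.range T) ≤ n :=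
      le_trans (Submodule.finrank_mono hrange) hWn
    have hQfin : Module.Finite K (D ⧸ LinearMap.ker T) :=
      Module.Finite.equiv T.quotKerEquivRange.symm
    have hQrank : finrank K (D ⧸ LinearMap.ker T) ≤ n := by
      rw [T.quotKerEquivRange.finrank_eq]
      exact hRrank
    obtain ⟨a, ha⟩ := hx
    set φ : LinearMap.ker T →ₗ[K] D ⧸ LinearMap.ker T :=
      (LinearMap.ker T).mkQ ∘ₗ LinearMap.mulRight K a ∘ₗ (LinearMap.ker T).subtype with hφdef
    have hφ : Function.Injective φ := by
      rw [← LinearMap.ker_eq_bot, Submodule.eq_bot_iff]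
      rintro ⟨e, he⟩ h
      rw [LinearMap.mem_ker] at h
      have h1 : e * a ∈ LinearMap.ker T := by
        have h2 : φ ⟨e, he⟩ = (LinearMap.ker T).mkQ (e * a) := by simp [hφdef]
        rw [h2, Submodule.mkQ_apply, Submodule.Quotient.mk_eq_zero] at h
        exact h
      rw [LinearMap.mem_ker, hTapp, sub_eq_zero] at he h1
      -- he : e * x = l • e, h1 : e * a * x = l • (e * a)
      have h3 : e * (a * x - x * a) = 0 := by
        rw [mul_sub, ← mul_assoc, ← mul_assoc, h1, he, smul_mul_assoc, sub_self]
      have h4 : e = 0 := by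
        rcases mul_eq_zero.1 h3 with h5 | h5
        · exact h5
        · exact absurd (sub_eq_zero.1 h5) ha
      exact Subtype.ext h4
    have hKfin : Module.Finite K (LinearMap.ker T) := Module.Finite.of_injective φ hφ
    have hKrank : finrank K (LinearMap.ker T) ≤ n :=
      le_trans (LinearMap.finrank_le_finrank_of_injective hφ) hQrank
    have hDfin : Module.Finite K D := Module.Finite.of_submodule_quotient (LinearMap.ker T)
    refine ⟨hDfin, ?_⟩
    have h7 := Submodule.finrank_quotient_add_finrank (LinearMap.ker T)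
    omega
  · have hdep : ∀ e1 e2 : D, ∃ a b : K, a • e1 + b • e2 ∈ W ∧ ¬(a = 0 ∧ b = 0) := by
      intro e1 e2
      by_contra h
      exact hind ⟨e1, e2, fun a b hm => by_contra fun hne => h ⟨a, b, hm, hne⟩⟩
    by_cases hW : ∀ e : D, e ∈ W
    · have htop : W ⊔ (⊥ : Submodule K D) = ⊤ := by
        rw [sup_bot_eq, Submodule.eq_top_iff']
        exact hW
      obtain ⟨hD, hr⟩ := finite_of_sup_eq_top W ⊥ htop
      refine ⟨hD, ?_⟩
      rw [finrank_bot] at hr
      omega
    · have hW' : ∃ e1 : D, e1 ∉ W := by
        by_contra h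
        exact hW fun e => by_contra fun he => h ⟨e, he⟩
      obtain ⟨e1, he1⟩ := hW'
      have htop : W ⊔ Submodule.span K {e1} = ⊤ := by
        rw [Submodule.eq_top_iff']
        intro e
        obtain ⟨a, b, hm, hne⟩ := hdep e1 e
        have hb : b ≠ 0 := by
          intro hb
          subst hb
          have ha : a ≠ 0 := fun ha => hne ⟨ha, rfl⟩
          rw [zero_smul, add_zero] at hm
          exact he1 ((W.smul_mem_iff ha).1 hm)
        have h1 : e = b⁻¹ • (a • e1 + b • e) + (-(b⁻¹ * a)) • e1 := by
          rw [smul_add, smul_smul, smul_smul, inv_mul_cancel₀ hb, one_smul, neg_smul]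
          abel
        rw [h1]
        exact Submodule.add_mem_sup (W.smul_mem _ hm)
          (Submodule.smul_mem _ _ (Submodule.mem_span_singleton_self e1))
      obtain ⟨hD, hr⟩ := finite_of_sup_eq_top W (Submodule.span K {e1}) htop
      refine ⟨hD, ?_⟩
      have h2 : finrank K (Submodule.span K {e1}) = 1 :=
        finrank_span_singleton (fun h => he1 (h ▸ W.zero_mem))
      omega

end Step

end Vale.Agent.H28
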